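import Mathlib

/-!
Two-dimensional Sperner lemma on the triangular grid `a + b ≤ n`.
-/

namespace Vale.Agent.Lib.P032

/-- The door function on three labels, valued in `ZMod 2`: a door is an edge with labels 0 and 2. -/
def door (x y : Fin 3) : ZMod 2 :=
  if (x = 0 ∧ y = 2) ∨ (x = 2 ∧ y = 0) then 1 else 0

lemma door_triangle (x y z : Fin 3) (h : ¬ (x ≠ y ∧ y ≠ z ∧ x ≠ z)) :
    door x y + door y z + door x z = 0 := by
  revert x y z
  decide

lemma door_symm (x y : Fin 3) : door x y = door y x := by
  revert x y
  decide

lemma zmod2_add_self (x : ZMod 2) : x + x = 0 := by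
  revert x
  decide

/-- The indicator of label zero. -/
def phi (x : Fin 3) : ZMod 2 := if x = 0 then 1 else 0

lemma door_phi (x y : Fin 3) (hx : x ≠ 1) (hy : y ≠ 1) : door x y = phi x + phi y := by
  revert x y
  decide

/-- Sperner's lemma on the grid. Labels avoid 0 on the side `a = 0`, avoid 1 on the side `b = 0`
and avoid 2 on the side `a + b = n`; then some elementary triangle carries all three labels. -/
theorem sperner (n : ℕ) (hn : 0 < n) (L : ℕ → ℕ → Fin 3)
    (h0 : ∀ b, b ≤ n → L 0 b ≠ 0)
    (h1 : ∀ a, a ≤ n → L a 0 ≠ 1)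
    (h2 : ∀ a b, a + b = n → L a b ≠ 2) :
    ∃ a b, (a + b < n ∧ L a b ≠ L (a+1) b ∧ L (a+1) b ≠ L a (b+1) ∧ L a b ≠ L a (b+1)) ∨
      (a + b + 1 < n ∧ L (a+1) b ≠ L a (b+1) ∧ L a (b+1) ≠ L (a+1) (b+1) ∧
        L (a+1) b ≠ L (a+1) (b+1)) := by
  by_contra hcon
  push Not at hcon
  -- row door counts
  let H : ℕ → ℕ → ZMod 2 := fun a b => door (L a b) (L (a+1) b)
  let D : ℕ → ZMod 2 := fun b => ∑ a ∈ Finset.range (n - b), H a b
  let v : ℕ → ℕ → ZMod 2 := fun a b => door (L a b) (L a (b+1))
  let s : ℕ → ℕ → ZMod 2 := fun a b => door (L (a+1) b) (L a (b+1))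
  -- up triangle relation
  have hup : ∀ a b, a + b < n → H a b + s a b + v a b = 0 := by
    intro a b hab
    have h3 := (hcon a b).1
    have := door_triangle (L a b) (L (a+1) b) (L a (b+1)) (by
      rintro ⟨h4, h5, h6⟩
      exact h6 (h3 hab h4 h5))
    exact this
  -- down triangle relation
  have hdown : ∀ a b, a + b + 1 < n → s a b + H a (b+1) + v (a+1) b = 0 := by
    intro a b hab
    have h3 := (hcon a b).2
    have := door_triangle (L (a+1) b) (L a (b+1)) (L (a+1) (b+1)) (by
      rintro ⟨h4, h5, h6⟩
      exact h6 (h3 hab h4 h5))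
    exact this
  -- char two arithmetic
  have char2 : ∀ x y : ZMod 2, x + y = 0 → x = y := by decide
  have hstep : ∀ a b, a + b + 1 < n → H a b + H a (b+1) = v a b + v (a+1) b := by
    intro a b hab
    have e1 := hup a b (by omega)
    have e2 := hdown a b hab
    revert e1 e2
    generalize H a b = x1
    generalize H a (b+1) = x2
    generalize s a b = x3
    generalize v a b = x4
    generalize v (a+1) b = x5
    revert x1 x2 x3 x4 x5
    decide
  have htele : ∀ b k, k + b + 1 ≤ n →
      (∑ a ∈ Finset.range k, (H a b + H a (b+1))) = v 0 b + v k b := by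
    intro b k
    induction k with
    | zero =>
      intro _
      simp [zmod2_add_self]
    | succ k ih =>
      intro hk
      rw [Finset.sum_range_succ, ih (by omega), hstep k b (by omega)]
      generalize v 0 b = x1
      generalize v k b = x2
      generalize v (k+1) b = x3
      revert x1 x2 x3
      decide
  -- consecutive rows
  have hrow : ∀ b, b < n → D b = D (b+1) := by
    intro b hb
    obtain ⟨k, hk⟩ : ∃ k, n - b = k + 1 := ⟨n - b - 1, by omega⟩
    have e' : n - (b+1) = k := by omega
    show ∑ a ∈ Finset.range (n - b), H a b = ∑ a ∈ Finset.range (n - (b+1)), H a (b+1)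
    rw [e', hk, Finset.sum_range_succ]
    have hsum := htele b k (by omega)
    rw [Finset.sum_add_distrib] at hsum
    -- last up triangle
    have hlast := hup k b (by omega)
    have hs0 : s k b = 0 := by
      show door (L (k+1) b) (L k (b+1)) = 0
      have a1 := h2 (k+1) b (by omega)
      have a2 := h2 k (b+1) (by omega)
      revert a1 a2
      generalize L (k+1) b = x
      generalize L k (b+1) = y
      revert x y
      decide
    have hv0 : v 0 b = 0 := by
      show door (L 0 b) (L 0 (b+1)) = 0
      have a1 := h0 b (by omega)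
      have a2 := h0 (b+1) (by omega)
      revert a1 a2
      generalize L 0 b = x
      generalize L 0 (b+1) = y
      revert x y
      decide
    rw [hs0] at hlast
    rw [hv0] at hsum
    revert hsum hlast
    generalize (∑ a ∈ Finset.range k, H a b) = x1
    generalize (∑ a ∈ Finset.range k, H a (b+1)) = x2
    generalize H k b = x3
    generalize v k b = x4
    revert x1 x2 x3 x4
    decide
  have hD : ∀ b, b ≤ n → D 0 = D b := by
    intro b
    induction b with
    | zero => intro _; rfl
    | succ b ih =>
      intro hb
      rw [ih (by omega), hrow b (by omega)]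
  have hDn : D n = 0 := by
    show ∑ a ∈ Finset.range (n - n), H a n = 0
    simp
  -- bottom row
  have htel0 : ∀ k, k ≤ n → (∑ a ∈ Finset.range k, H a 0) = phi (L 0 0) + phi (L k 0) := by
    intro k
    induction k with
    | zero =>
      intro _
      simp [zmod2_add_self]
    | succ k ih =>
      intro hk
      rw [Finset.sum_range_succ, ih (by omega)]
      have e1 : H k 0 = phi (L k 0) + phi (L (k+1) 0) :=
        door_phi _ _ (h1 k (by omega)) (h1 (k+1) (by omega))
      rw [e1]
      generalize phi (L 0 0) = x1
      generalize phi (L k 0) = x2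
      generalize phi (L (k+1) 0) = x3
      revert x1 x2 x3
      decide
  have hD0 : D 0 = phi (L 0 0) + phi (L n 0) := by
    show ∑ a ∈ Finset.range (n - 0), H a 0 = _
    simpa using htel0 n le_rfl
  have hL00 : L 0 0 = 2 := by
    have a1 := h0 0 (by omega)
    have a2 := h1 0 (by omega)
    revert a1 a2
    generalize L 0 0 = x
    revert x
    decide
  have hLn0 : L n 0 = 0 := by
    have a1 := h1 n le_rfl
    have a2 := h2 n 0 (by omega)
    revert a1 a2
    generalize L n 0 = x
    revert x
    decide
  have hfinal : (0 : ZMod 2) = 1 := by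
    have : D 0 = 0 := by rw [hD n le_rfl, hDn]
    rw [hD0, hL00, hLn0] at this
    revert this
    decide
  exact absurd hfinal (by decide)

end Vale.Agent.Lib.P032
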