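import Mathlib
import Vale.Agent.Lib.P032.Sperner

/-!
Closed covers of the plane without unit distances: existence of a point in three classes.
-/

namespace Vale.Agent.Lib.P032

open Metric Set

/-- The Euclidean plane. -/
abbrev E2 := EuclideanSpace ℝ (Fin 2)

lemma dist_coord (x y : E2) : dist x y = √((x 0 - y 0)^2 + (x 1 - y 1)^2) := by
  rw [EuclideanSpace.dist_eq]
  simp [Fin.sum_univ_two, Real.dist_eq, sq_abs]

/-- Point of the plane with given coordinates. -/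
noncomputable def pt (a b : ℝ) : E2 := !₂[a, b]

@[simp] lemma pt_zero (a b : ℝ) : (pt a b) 0 = a := by simp [pt]
@[simp] lemma pt_one (a b : ℝ) : (pt a b) 1 = b := by simp [pt]

lemma dist_pt (a b c d : ℝ) : dist (pt a b) (pt c d) = √((a - c)^2 + (b - d)^2) := by
  rw [dist_coord]; simp

lemma dist_pt_le {a b c d h : ℝ} (h0 : 0 ≤ h) (h1 : |a - c| ≤ h) (h2 : |b - d| ≤ h) :
    dist (pt a b) (pt c d) ≤ 2 * h := by
  rw [dist_pt]
  apply Real.sqrt_le_iff.2
  refine ⟨by positivity, ?_⟩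
  have e1 : (a - c)^2 ≤ h^2 := by
    rw [← sq_abs (a - c)]; exact pow_le_pow_left₀ (abs_nonneg _) h1 2
  have e2 : (b - d)^2 ≤ h^2 := by
    rw [← sq_abs (b - d)]; exact pow_le_pow_left₀ (abs_nonneg _) h2 2
  nlinarith [sq_nonneg h]

lemma abs_sub_le_dist_pt (a b c d : ℝ) : |a - c| ≤ dist (pt a b) (pt c d) := by
  rw [dist_pt]
  apply Real.abs_le_sqrt
  nlinarith [sq_nonneg (b - d)]

lemma abs_sub_le_dist_pt' (a b c d : ℝ) : |b - d| ≤ dist (pt a b) (pt c d) := by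
  rw [dist_pt]
  apply Real.abs_le_sqrt
  nlinarith [sq_nonneg (a - c)]

/-- A continuous positive function on a compact set has a positive lower bound. -/
lemma pos_lb {X : Type*} [TopologicalSpace X] {S : Set X} (hS : IsCompact S) {f : X → ℝ}
    (hf : Continuous f) (hpos : ∀ x ∈ S, 0 < f x) : ∃ ε > 0, ∀ x ∈ S, ε ≤ f x := by
  by_cases hne : S.Nonempty
  · obtain ⟨x0, hx0, hmin⟩ := hS.exists_isMinOn hne hf.continuousOn
    exact ⟨f x0, hpos x0 hx0, fun x hx => hmin hx⟩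
  · refine ⟨1, one_pos, fun x hx => absurd ⟨x, hx⟩ hne⟩

/-- Uniform choice over a finite type. -/
lemma exists_unif {α : Type*} [Finite α] (P : α → ℝ → Prop)
    (hmono : ∀ a ε ε', ε' ≤ ε → P a ε → P a ε') (h : ∀ a, ∃ ε > 0, P a ε) :
    ∃ ε > 0, ∀ a, P a ε := by
  choose f hf hP using h
  by_cases hne : Nonempty α
  · obtain ⟨x0, hx0⟩ := Finite.exists_min f
    exact ⟨f x0, hf x0, fun a => hmono a (f a) (f x0) (hx0 a) (hP a)⟩
  · exact ⟨1, one_pos, fun a => absurd ⟨a⟩ hne⟩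

/-- If finitely many closed sets cover the plane and none contains two points at distance one,
some point lies in three of them (with distinct indices). -/
theorem triple_point {ι : Type*} [Finite ι] (A : ι → Set E2) (hcl : ∀ i, IsClosed (A i))
    (hU : ∀ x, ∃ i, x ∈ A i) (hno : ∀ i, ∀ x ∈ A i, ∀ y ∈ A i, dist x y ≠ 1) :
    ∃ i j k, i ≠ j ∧ j ≠ k ∧ i ≠ k ∧ ∃ p, p ∈ A i ∧ p ∈ A j ∧ p ∈ A k := by
  by_contra hcon
  push Not at hcon
  classical
  -- the compact window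
  set K : Set E2 := closedBall (pt 0 0) 10 with hK
  have hKc : IsCompact K := isCompact_closedBall _ _
  have hAK : ∀ i, IsCompact (A i ∩ K) := fun i => hKc.inter_left (hcl i)
  -- uniform band
  have hband : ∃ ε > 0, ∀ i, ∀ x ∈ A i ∩ K, ∀ y ∈ A i ∩ K, ε ≤ |dist x y - 1| := by
    apply exists_unif (fun i ε => ∀ x ∈ A i ∩ K, ∀ y ∈ A i ∩ K, ε ≤ |dist x y - 1|)
    · intro a ε ε' hle h x hx y hy
      exact hle.trans (h x hx y hy)
    · intro i
      obtain ⟨ε, hε, h⟩ := pos_lb ((hAK i).prod (hAK i))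
        (f := fun q : E2 × E2 => |dist q.1 q.2 - 1|)
        (by fun_prop)
        (by
          rintro ⟨x, y⟩ ⟨hx, hy⟩
          apply abs_pos.2
          intro h0
          exact hno i x hx.1 y hy.1 (by linarith))
      exact ⟨ε, hε, fun x hx y hy => h (x, y) ⟨hx, hy⟩⟩
  -- uniform triple bound
  have htrip : ∃ ε > 0, ∀ t : ι × ι × ι, t.1 ≠ t.2.1 → t.2.1 ≠ t.2.2 → t.1 ≠ t.2.2 →
      ∀ u ∈ A t.1 ∩ K, ∀ v ∈ A t.2.1 ∩ K, ∀ w ∈ A t.2.2 ∩ K, ε ≤ max (dist u v) (dist u w) := by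
    apply exists_unif (fun (t : ι × ι × ι) ε => t.1 ≠ t.2.1 → t.2.1 ≠ t.2.2 → t.1 ≠ t.2.2 →
      ∀ u ∈ A t.1 ∩ K, ∀ v ∈ A t.2.1 ∩ K, ∀ w ∈ A t.2.2 ∩ K, ε ≤ max (dist u v) (dist u w))
    · intro a ε ε' hle h h1 h2 h3 u hu v hv w hw
      exact hle.trans (h h1 h2 h3 u hu v hv w hw)
    · rintro ⟨i, j, k⟩
      by_cases hij : i = j
      · exact ⟨1, one_pos, fun h => absurd hij h⟩
      by_cases hjk : j = k
      · exact ⟨1, one_pos, fun _ h => absurd hjk h⟩
      by_cases hik : i = k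
      · exact ⟨1, one_pos, fun _ _ h => absurd hik h⟩
      obtain ⟨ε, hε, h⟩ := pos_lb ((hAK i).prod ((hAK j).prod (hAK k)))
        (f := fun q : E2 × E2 × E2 => max (dist q.1 q.2.1) (dist q.1 q.2.2))
        (by fun_prop)
        (by
          rintro ⟨u, v, w⟩ ⟨hu, hv, hw⟩
          by_contra hle
          push Not at hle
          have e1 : dist u v ≤ 0 := (le_max_left _ _).trans hle
          have e2 : dist u w ≤ 0 := (le_max_right _ _).trans hle
          have e3 : u = v := dist_le_zero.1 e1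
          have e4 : u = w := dist_le_zero.1 e2
          exact hcon i j k hij hjk hik u hu.1 (e3 ▸ hv.1) (e4 ▸ hw.1))
      exact ⟨ε, hε, fun _ _ _ u hu v hv w hw => h (u, v, w) ⟨hu, hv, hw⟩⟩
  obtain ⟨ε1, hε1, hb⟩ := hband
  obtain ⟨ε2, hε2, ht⟩ := htrip
  set ε := min ε1 ε2 with hε
  have hεpos : 0 < ε := lt_min hε1 hε2
  -- the mesh
  obtain ⟨n, hn⟩ := exists_nat_gt (6 / ε)
  have hnpos : (0 : ℝ) < n := lt_trans (by positivity) hn
  have hn0 : 0 < n := by exact_mod_cast hnpos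
  set h : ℝ := 3 / n with hh
  have hhpos : 0 < h := by positivity
  have hnh : (n : ℝ) * h = 3 := by rw [hh]; field_simp
  have hmesh : 2 * h < ε := by
    have e1 : 6 / ε * ε = 6 := by field_simp
    have e2 : (6 : ℝ) < n * ε := by nlinarith
    rw [hh]
    rw [show (2 : ℝ) * (3 / n) = 6 / n by ring, div_lt_iff₀ hnpos]
    linarith
  choose col hcol using hU
  -- grid points
  let g : ℕ × ℕ → E2 := fun u => pt (u.1 * h) (u.2 * h)
  let V : ℕ × ℕ → Prop := fun u => u.1 + u.2 ≤ n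
  have hgK : ∀ u, V u → g u ∈ K := by
    intro u hu
    have h1 : (u.1 : ℝ) + u.2 ≤ n := by exact_mod_cast hu
    have h2 : (0 : ℝ) ≤ u.1 := by positivity
    have h3 : (0 : ℝ) ≤ u.2 := by positivity
    have e1 : (u.1 : ℝ) * h ≤ 3 := by nlinarith
    have e2 : (u.2 : ℝ) * h ≤ 3 := by nlinarith
    have e3 : 0 ≤ (u.1 : ℝ) * h := by positivity
    have e4 : 0 ≤ (u.2 : ℝ) * h := by positivity
    rw [hK, mem_closedBall, dist_pt]
    apply Real.sqrt_le_iff.2
    constructor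
    · norm_num
    · nlinarith
  let near : ℕ × ℕ → ℕ × ℕ → Prop := fun u v =>
    u.1 ≤ v.1 + 1 ∧ v.1 ≤ u.1 + 1 ∧ u.2 ≤ v.2 + 1 ∧ v.2 ≤ u.2 + 1
  have hnear : ∀ u v, near u v → dist (g u) (g v) ≤ 2 * h := by
    rintro ⟨a, b⟩ ⟨c, d⟩ ⟨h1, h2, h3, h4⟩
    apply dist_pt_le hhpos.le
    · show |(a : ℝ) * h - c * h| ≤ h
      have h1' : (a : ℝ) ≤ c + 1 := by exact_mod_cast h1
      have h2' : (c : ℝ) ≤ a + 1 := by exact_mod_cast h2
      rw [abs_le]; constructor <;> nlinarith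
    · show |(b : ℝ) * h - d * h| ≤ h
      have h3' : (b : ℝ) ≤ d + 1 := by exact_mod_cast h3
      have h4' : (d : ℝ) ≤ b + 1 := by exact_mod_cast h4
      rw [abs_le]; constructor <;> nlinarith
  let Adj : ℕ × ℕ → ℕ × ℕ → Prop := fun u v =>
    V u ∧ V v ∧ col (g u) = col (g v) ∧ near u v
  have hAdjS : ∀ u v, Adj u v → Adj v u := by
    rintro u v ⟨h1, h2, h3, h4, h5, h6, h7⟩
    exact ⟨h2, h1, h3.symm, h5, h4, h7, h6⟩
  let R := Relation.ReflTransGen Adj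
  have hRS : ∀ {x y}, R x y → R y x := by
    intro x y hxy
    induction hxy with
    | refl => exact Relation.ReflTransGen.refl
    | tail _ hs ih => exact Relation.ReflTransGen.head (hAdjS _ _ hs) ih
  -- colours and membership along chains
  have hRcol : ∀ x z, R x z → col (g x) = col (g z) := by
    intro x z hxz
    induction hxz with
    | refl => rfl
    | tail _ hstep ih => exact ih.trans hstep.2.2.1
  have hRV : ∀ x z, V x → R x z → V z := by
    intro x z hx hxz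
    induction hxz with
    | refl => exact hx
    | tail _ hstep _ => exact hstep.2.1
  -- chains stay within distance one
  have hchain : ∀ x z, V x → R x z → dist (g x) (g z) ≤ 1 := by
    intro x z hx hxz
    induction hxz with
    | refl => simp
    | @tail w z hxw hstep ih =>
      by_contra hgt
      push Not at hgt
      have hzV : V z := hstep.2.1
      have e1 : dist (g x) (g z) ≤ dist (g x) (g w) + dist (g w) (g z) := dist_triangle _ _ _
      have e2 := hnear w z hstep.2.2.2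
      have e3 : col (g x) = col (g z) := (hRcol x w hxw).trans hstep.2.2.1
      have hxA : g x ∈ A (col (g z)) ∩ K := ⟨e3 ▸ hcol (g x), hgK x hx⟩
      have hzA : g z ∈ A (col (g z)) ∩ K := ⟨hcol (g z), hgK z hzV⟩
      have e4 := hb (col (g z)) (g x) hxA (g z) hzA
      have e5 : |dist (g x) (g z) - 1| = dist (g x) (g z) - 1 := abs_of_pos (by linarith)
      have e6 : ε ≤ ε1 := min_le_left _ _
      rw [e5] at e4
      linarith
  -- touching predicates
  let t0 : ℕ × ℕ → Prop := fun u => ∃ w, R u w ∧ w.1 = 0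
  let t1 : ℕ × ℕ → Prop := fun u => ∃ w, R u w ∧ w.2 = 0
  let t2 : ℕ × ℕ → Prop := fun u => ∃ w, R u w ∧ w.1 + w.2 = n
  have hnot3 : ∀ u, V u → t0 u → t1 u → t2 u → False := by
    rintro u hu ⟨x, hux, hx⟩ ⟨y, huy, hy⟩ ⟨z, huz, hz⟩
    have hxV := hRV u x hu hux
    have hyV := hRV u y hu huy
    have hxz : R x z := (hRS hux).trans huz
    have hyz : R y z := (hRS huy).trans huz
    have d1 := hchain x z hxV hxz
    have d2 := hchain y z hyV hyz
    have c1 : |(x.1 : ℝ) * h - z.1 * h| ≤ dist (g x) (g z) := abs_sub_le_dist_pt _ _ _ _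
    have c2 : |(y.2 : ℝ) * h - z.2 * h| ≤ dist (g y) (g z) := abs_sub_le_dist_pt' _ _ _ _
    rw [hx] at c1
    rw [hy] at c2
    simp only [Nat.cast_zero, zero_mul, zero_sub, abs_neg] at c1 c2
    have c3 : (z.1 : ℝ) * h ≤ 1 := by
      have := le_abs_self ((z.1 : ℝ) * h)
      linarith
    have c4 : (z.2 : ℝ) * h ≤ 1 := by
      have := le_abs_self ((z.2 : ℝ) * h)
      linarith
    have c5 : (z.1 : ℝ) + z.2 = n := by exact_mod_cast hz
    nlinarith
  -- labels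
  let L : ℕ → ℕ → Fin 3 := fun a b =>
    if ¬ t0 (a, b) then 0 else if ¬ t1 (a, b) then 1 else 2
  have hL0 : ∀ b, b ≤ n → L 0 b ≠ 0 := by
    intro b _ hL
    have ht : t0 (0, b) := ⟨(0, b), Relation.ReflTransGen.refl, rfl⟩
    simp only [L, ht, not_true_eq_false, if_false] at hL
    split_ifs at hL <;> simp at hL
  have hL1 : ∀ a, a ≤ n → L a 0 ≠ 1 := by
    intro a _ hL
    have ht : t1 (a, 0) := ⟨(a, 0), Relation.ReflTransGen.refl, rfl⟩
    simp only [L, ht, not_true_eq_false, if_false] at hL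
    split_ifs at hL <;> simp at hL
  have hL2 : ∀ a b, a + b = n → L a b ≠ 2 := by
    intro a b hab hL
    have ht : t2 (a, b) := ⟨(a, b), Relation.ReflTransGen.refl, hab⟩
    by_cases h0 : t0 (a, b)
    · by_cases h1 : t1 (a, b)
      · exact hnot3 (a, b) (by show a + b ≤ n; omega) h0 h1 ht
      · simp [L, h0, h1] at hL
    · simp [L, h0] at hL
  -- labels are constant on clusters
  have hLeq : ∀ u v, R u v → L u.1 u.2 = L v.1 v.2 := by
    intro u v huv
    have a0 : t0 u ↔ t0 v := ⟨fun ⟨w, h1, h2⟩ => ⟨w, (hRS huv).trans h1, h2⟩,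
      fun ⟨w, h1, h2⟩ => ⟨w, huv.trans h1, h2⟩⟩
    have a1 : t1 u ↔ t1 v := ⟨fun ⟨w, h1, h2⟩ => ⟨w, (hRS huv).trans h1, h2⟩,
      fun ⟨w, h1, h2⟩ => ⟨w, huv.trans h1, h2⟩⟩
    show (if ¬ t0 (u.1, u.2) then (0 : Fin 3) else if ¬ t1 (u.1, u.2) then 1 else 2) =
      (if ¬ t0 (v.1, v.2) then (0 : Fin 3) else if ¬ t1 (v.1, v.2) then 1 else 2)
    simp only [Prod.mk.eta, a0, a1]
  -- different labels at near points of the window force different colours
  have hcoldiff : ∀ u v, V u → V v → near u v → L u.1 u.2 ≠ L v.1 v.2 → col (g u) ≠ col (g v) := by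
    intro u v hu hv hn' hL hc
    exact hL (hLeq u v (Relation.ReflTransGen.single ⟨hu, hv, hc, hn'⟩))
  -- a rainbow triangle gives a contradiction
  have hfinish : ∀ P Q S : ℕ × ℕ, V P → V Q → V S → near P Q → near Q S → near P S →
      L P.1 P.2 ≠ L Q.1 Q.2 → L Q.1 Q.2 ≠ L S.1 S.2 → L P.1 P.2 ≠ L S.1 S.2 → False := by
    intro P Q S hP hQ hS n1 n2 n3 l1 l2 l3
    have c1 := hcoldiff P Q hP hQ n1 l1
    have c2 := hcoldiff Q S hQ hS n2 l2
    have c3 := hcoldiff P S hP hS n3 l3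
    have e := ht (col (g P), col (g Q), col (g S)) c1 c2 c3 (g P) ⟨hcol _, hgK P hP⟩
      (g Q) ⟨hcol _, hgK Q hQ⟩ (g S) ⟨hcol _, hgK S hS⟩
    have e' : max (dist (g P) (g Q)) (dist (g P) (g S)) ≤ 2 * h :=
      max_le (hnear P Q n1) (hnear P S n3)
    have e2 : ε ≤ ε2 := min_le_right _ _
    linarith
  obtain ⟨a, b, hab⟩ := sperner n hn0 L hL0 hL1 hL2
  rcases hab with ⟨hlt, l1, l2, l3⟩ | ⟨hlt, l1, l2, l3⟩
  · refine hfinish (a, b) (a+1, b) (a, b+1) ?_ ?_ ?_ ?_ ?_ ?_ l1 l2 l3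
    · show a + b ≤ n; omega
    · show a + 1 + b ≤ n; omega
    · show a + (b + 1) ≤ n; omega
    · show a ≤ a + 1 + 1 ∧ a + 1 ≤ a + 1 ∧ b ≤ b + 1 ∧ b ≤ b + 1; omega
    · show a + 1 ≤ a + 1 ∧ a ≤ a + 1 + 1 ∧ b ≤ b + 1 + 1 ∧ b + 1 ≤ b + 1; omega
    · show a ≤ a + 1 ∧ a ≤ a + 1 ∧ b ≤ b + 1 + 1 ∧ b + 1 ≤ b + 1; omega
  · refine hfinish (a+1, b) (a, b+1) (a+1, b+1) ?_ ?_ ?_ ?_ ?_ ?_ l1 l2 l3
    · show a + 1 + b ≤ n; omega
    · show a + (b + 1) ≤ n; omega
    · show a + 1 + (b + 1) ≤ n; omega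
    · show a + 1 ≤ a + 1 ∧ a ≤ a + 1 + 1 ∧ b ≤ b + 1 + 1 ∧ b + 1 ≤ b + 1; omega
    · show a ≤ a + 1 + 1 ∧ a + 1 ≤ a + 1 ∧ b + 1 ≤ b + 1 + 1 ∧ b + 1 ≤ b + 1 + 1; omega
    · show a + 1 ≤ a + 1 + 1 ∧ a + 1 ≤ a + 1 + 1 ∧ b ≤ b + 1 + 1 ∧ b + 1 ≤ b + 1; omega

end Vale.Agent.Lib.P032
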