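import Mathlib
import Vale.Agent.Lib.P032.Closed

/-!
The unit circle around a point and its unit chords.
-/

namespace Vale.Agent.Lib.P032

open Real Set

/-- Parametrisation of the unit circle around `p`. -/
noncomputable def gam (p : E2) (t : ℝ) : E2 := pt (p 0 + cos t) (p 1 + sin t)

lemma gam_cont (p : E2) : Continuous (gam p) := by
  unfold gam pt
  apply Continuous.comp (PiLp.continuous_toLp 2 _)
  apply continuous_pi
  intro i
  fin_cases i
  · simp only [Fin.zero_eta, Fin.isValue, Matrix.cons_val_zero]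
    fun_prop
  · simp only [Fin.mk_one, Fin.isValue, Matrix.cons_val_one, Matrix.cons_val_zero]
    fun_prop

lemma dist_center_gam (p : E2) (t : ℝ) : dist p (gam p t) = 1 := by
  rw [dist_coord]
  simp only [gam, pt_zero, pt_one]
  have : (p 0 - (p 0 + cos t))^2 + (p 1 - (p 1 + sin t))^2 = 1 := by
    have := sin_sq_add_cos_sq t
    nlinarith
  rw [this, Real.sqrt_one]

lemma dist_gam_chord (p : E2) (t : ℝ) : dist (gam p t) (gam p (t + π / 3)) = 1 := by
  rw [dist_coord]
  simp only [gam, pt_zero, pt_one]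
  have h3 : √3 ^ 2 = 3 := Real.sq_sqrt (by norm_num)
  have : (p 0 + cos t - (p 0 + cos (t + π / 3)))^2 + (p 1 + sin t - (p 1 + sin (t + π / 3)))^2 = 1 := by
    rw [cos_add, sin_add, cos_pi_div_three, sin_pi_div_three]
    have := sin_sq_add_cos_sq t
    nlinarith
  rw [this, Real.sqrt_one]

/-- A circle cannot be covered by two closed sets neither of which has a unit chord. -/
theorem circle_two_closed (p : E2) (D F : Set E2) (hD : IsClosed D) (hF : IsClosed F)
    (hcov : ∀ t, gam p t ∈ D ∨ gam p t ∈ F)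
    (hDno : ∀ x ∈ D, ∀ y ∈ D, dist x y ≠ 1)
    (hFno : ∀ x ∈ F, ∀ y ∈ F, dist x y ≠ 1) : False := by
  have hTD : IsClosed (gam p ⁻¹' D) := hD.preimage (gam_cont p)
  have hTF : IsClosed (gam p ⁻¹' F) := hF.preimage (gam_cont p)
  -- no parameter lies in both sets
  have hdisj : ∀ t, gam p t ∈ D → gam p t ∈ F → False := by
    intro t h1 h2
    rcases hcov (t + π / 3) with h3 | h3
    · exact hDno _ h1 _ h3 (dist_gam_chord p t)
    · exact hFno _ h2 _ h3 (dist_gam_chord p t)
  -- two consecutive points on the circle have different classes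
  rcases hcov 0 with h0 | h0 <;> rcases hcov (0 + π / 3) with h1 | h1
  · exact hDno _ h0 _ h1 (dist_gam_chord p 0)
  · have := isPreconnected_closed_iff.1 isPreconnected_univ _ _ hTD hTF
      (fun t _ => hcov t) ⟨0, mem_univ _, h0⟩ ⟨0 + π / 3, mem_univ _, h1⟩
    obtain ⟨t, -, h2, h3⟩ := this
    exact hdisj t h2 h3
  · have := isPreconnected_closed_iff.1 isPreconnected_univ _ _ hTD hTF
      (fun t _ => hcov t) ⟨0 + π / 3, mem_univ _, h1⟩ ⟨0, mem_univ _, h0⟩
    obtain ⟨t, -, h2, h3⟩ := this
    exact hdisj t h2 h3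
  · exact hFno _ h0 _ h1 (dist_gam_chord p 0)

end Vale.Agent.Lib.P032
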